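/-
Helper82 — S0175 project, interface-free COST package.

Basic facts on `pairCost` / `tripleCost` of `Crest.Prelude.Def_MultiMarginal`:
symmetry, continuity, measurability, the finite real formula off the diagonal, lower bounds,
a Lipschitz bound for `r ↦ r ^ (-s)` away from `0`, and a generic proof of the field `cont` of
`TwoShellHyp` (uniform continuity of the cost near the contact triangles) for parametrisations
that are Lipschitz in the angle and whose triangles have side lengths bounded below.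
-/
import Mathlib
import Crest.Prelude.Def_MultiMarginal

set_option autoImplicit false
open MeasureTheory Set
open scoped ENNReal
open Crest.AnalysisR.OT

namespace Crest.Agent.Helper82.OT3

section basic
variable {E : Type*} [NormedAddCommGroup E]

theorem pairCost_comm (s : ℝ) (x y : E) : pairCost s x y = pairCost s y x := by
  unfold pairCost; rw [norm_sub_rev]

theorem tripleCost_apply (s : ℝ) (x y z : E) :
    tripleCost s (x, y, z) = pairCost s x y + pairCost s x z + pairCost s y z := rfl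

theorem tripleCost_symm12 (s : ℝ) (x y z : E) :
    tripleCost s (y, x, z) = tripleCost s (x, y, z) := by
  simp only [tripleCost_apply]
  rw [pairCost_comm s y x, add_right_comm]

theorem tripleCost_symm23 (s : ℝ) (x y z : E) :
    tripleCost s (x, z, y) = tripleCost s (x, y, z) := by
  simp only [tripleCost_apply]
  rw [pairCost_comm s z y, add_comm (pairCost s x z)]

theorem tripleCost_symm13 (s : ℝ) (x y z : E) :
    tripleCost s (z, y, x) = tripleCost s (x, y, z) := by
  simp only [tripleCost_apply]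
  rw [pairCost_comm s z y, pairCost_comm s z x, pairCost_comm s y x]
  abel

/-- cyclic shift -/
theorem tripleCost_cycle (s : ℝ) (x y z : E) :
    tripleCost s (y, z, x) = tripleCost s (x, y, z) := by
  rw [tripleCost_symm23 s y x z, tripleCost_symm12]

theorem pairCost_le_tripleCost12 (s : ℝ) (x y z : E) : pairCost s x y ≤ tripleCost s (x, y, z) := by
  rw [tripleCost_apply, add_assoc]; exact le_self_add

theorem pairCost_le_tripleCost13 (s : ℝ) (x y z : E) : pairCost s x z ≤ tripleCost s (x, y, z) := by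
  rw [tripleCost_apply, add_right_comm]; exact le_add_self

theorem pairCost_le_tripleCost23 (s : ℝ) (x y z : E) : pairCost s y z ≤ tripleCost s (x, y, z) := by
  rw [tripleCost_apply]; exact le_add_self

/-- the finite real formula off the diagonal (any exponent) -/
theorem pairCost_eq_ofReal (s : ℝ) {x y : E} (h : x ≠ y) :
    pairCost s x y = ENNReal.ofReal (‖x - y‖ ^ (-s)) := by
  unfold pairCost
  exact ENNReal.ofReal_rpow_of_pos (norm_pos_iff.2 (sub_ne_zero.2 h))

theorem pairCost_eq_ofReal_of_pos (s : ℝ) {x y : E} (h : 0 < ‖x - y‖) :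
    pairCost s x y = ENNReal.ofReal (‖x - y‖ ^ (-s)) :=
  pairCost_eq_ofReal s (fun hxy => by simp [hxy] at h)

theorem pairCost_self {s : ℝ} (hs : 0 < s) (x : E) : pairCost s x x = ⊤ := by
  unfold pairCost
  rw [sub_self, norm_zero, ENNReal.ofReal_zero]
  exact ENNReal.zero_rpow_of_neg (by linarith)

theorem pairCost_ne_top_iff {s : ℝ} (hs : 0 < s) (x y : E) : pairCost s x y ≠ ⊤ ↔ x ≠ y := by
  constructor
  · intro h hxy; subst hxy; exact h (pairCost_self hs x)
  · intro h; rw [pairCost_eq_ofReal s h]; exact ENNReal.ofReal_ne_top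

theorem pairCost_eq_top_iff {s : ℝ} (hs : 0 < s) (x y : E) : pairCost s x y = ⊤ ↔ x = y := by
  have := pairCost_ne_top_iff hs x y
  constructor
  · intro h; by_contra hne; exact (this.2 hne) h
  · intro h; subst h; exact pairCost_self hs x

theorem tripleCost_eq_ofReal (s : ℝ) {x y z : E} (hxy : x ≠ y) (hxz : x ≠ z) (hyz : y ≠ z) :
    tripleCost s (x, y, z) =
      ENNReal.ofReal (‖x - y‖ ^ (-s) + ‖x - z‖ ^ (-s) + ‖y - z‖ ^ (-s)) := by
  rw [tripleCost_apply, pairCost_eq_ofReal s hxy, pairCost_eq_ofReal s hxz,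
    pairCost_eq_ofReal s hyz,
    ENNReal.ofReal_add (add_nonneg (Real.rpow_nonneg (norm_nonneg _) _)
      (Real.rpow_nonneg (norm_nonneg _) _)) (Real.rpow_nonneg (norm_nonneg _) _),
    ENNReal.ofReal_add (Real.rpow_nonneg (norm_nonneg _) _) (Real.rpow_nonneg (norm_nonneg _) _)]

theorem tripleCost_ne_top_iff {s : ℝ} (hs : 0 < s) (x y z : E) :
    tripleCost s (x, y, z) ≠ ⊤ ↔ x ≠ y ∧ x ≠ z ∧ y ≠ z := by
  rw [tripleCost_apply]
  simp only [ne_eq, ENNReal.add_eq_top, not_or]
  rw [← ne_eq, ← ne_eq, ← ne_eq, pairCost_ne_top_iff hs, pairCost_ne_top_iff hs,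
    pairCost_ne_top_iff hs, and_assoc]

theorem tripleCost_lt_top_iff {s : ℝ} (hs : 0 < s) (x y z : E) :
    tripleCost s (x, y, z) < ⊤ ↔ x ≠ y ∧ x ≠ z ∧ y ≠ z := by
  rw [lt_top_iff_ne_top, tripleCost_ne_top_iff hs]

/-- points at distance at most `D` cost at least `D ^ (-s)` (also on the diagonal) -/
theorem ofReal_rpow_le_pairCost {s : ℝ} (hs : 0 < s) {x y : E} {D : ℝ}
    (h : ‖x - y‖ ≤ D) : ENNReal.ofReal (D ^ (-s)) ≤ pairCost s x y := by
  by_cases hxy : x = y
  · subst hxy; rw [pairCost_self hs]; exact le_top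
  · rw [pairCost_eq_ofReal s hxy]
    apply ENNReal.ofReal_le_ofReal
    exact Real.rpow_le_rpow_of_nonpos (norm_pos_iff.2 (sub_ne_zero.2 hxy)) h (by linarith)

/-- points at distance at least `l > 0` cost at most `l ^ (-s)` -/
theorem pairCost_le_ofReal_rpow {s : ℝ} (hs : 0 < s) {x y : E} {l : ℝ} (hl : 0 < l)
    (h : l ≤ ‖x - y‖) : pairCost s x y ≤ ENNReal.ofReal (l ^ (-s)) := by
  rw [pairCost_eq_ofReal_of_pos s (lt_of_lt_of_le hl h)]
  apply ENNReal.ofReal_le_ofReal
  exact Real.rpow_le_rpow_of_nonpos hl h (by linarith)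

theorem continuous_pairCost (s : ℝ) : Continuous (fun p : E × E => pairCost s p.1 p.2) := by
  unfold pairCost
  exact ENNReal.continuous_rpow_const.comp
    (ENNReal.continuous_ofReal.comp (continuous_norm.comp (continuous_fst.sub continuous_snd)))

theorem continuous_tripleCost (s : ℝ) : Continuous (tripleCost s : E × E × E → ℝ≥0∞) := by
  have h12 : Continuous (fun p : E × E × E => pairCost s p.1 p.2.1) :=
    (continuous_pairCost (E := E) s).comp (continuous_fst.prodMk (continuous_fst.comp continuous_snd))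
  have h13 : Continuous (fun p : E × E × E => pairCost s p.1 p.2.2) :=
    (continuous_pairCost (E := E) s).comp (continuous_fst.prodMk (continuous_snd.comp continuous_snd))
  have h23 : Continuous (fun p : E × E × E => pairCost s p.2.1 p.2.2) :=
    (continuous_pairCost (E := E) s).comp
      ((continuous_fst.comp continuous_snd).prodMk (continuous_snd.comp continuous_snd))
  exact (h12.add h13).add h23

theorem measurable_tripleCost [MeasurableSpace E] [OpensMeasurableSpace E]
    [SecondCountableTopology E] (s : ℝ) : Measurable (tripleCost s : E × E × E → ℝ≥0∞) :=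
  (continuous_tripleCost s).measurable

theorem measurable_pairCost [MeasurableSpace E] [OpensMeasurableSpace E]
    [SecondCountableTopology E] (s : ℝ) : Measurable (fun p : E × E => pairCost s p.1 p.2) :=
  (continuous_pairCost s).measurable

end basic

/-! ### Lipschitz bound for `r ↦ r ^ (-s)` away from zero -/

theorem abs_rpow_neg_sub_le {s l r₁ r₂ : ℝ} (hs : 0 < s) (hl : 0 < l) (h₁ : l ≤ r₁)
    (h₂ : l ≤ r₂) : |r₂ ^ (-s) - r₁ ^ (-s)| ≤ s * l ^ (-s - 1) * |r₂ - r₁| := by
  have hconv : Convex ℝ (Ici l) := convex_Ici l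
  have hderiv : ∀ x ∈ Ici l, HasDerivWithinAt (fun x : ℝ => x ^ (-s)) (-s * x ^ (-s - 1)) (Ici l) x := by
    intro x hx
    have hx0 : x ≠ 0 := (lt_of_lt_of_le hl hx).ne'
    exact (Real.hasDerivAt_rpow_const (Or.inl hx0)).hasDerivWithinAt
  have hbound : ∀ x ∈ Ici l, ‖-s * x ^ (-s - 1)‖ ≤ s * l ^ (-s - 1) := by
    intro x hx
    have hx0 : 0 < x := lt_of_lt_of_le hl hx
    rw [Real.norm_eq_abs, abs_mul, abs_neg, abs_of_pos hs,
      abs_of_nonneg (Real.rpow_nonneg hx0.le _)]
    exact mul_le_mul_of_nonneg_left (Real.rpow_le_rpow_of_nonpos hl hx (by linarith)) hs.le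
  have := hconv.norm_image_sub_le_of_norm_hasDerivWithin_le hderiv hbound h₁ h₂
  simpa [Real.norm_eq_abs] using this

section cont
variable {E : Type*} [NormedAddCommGroup E]

/-- perturbation of one pair cost: both pairs at distance `≥ l`, distances differ by `≤ δ` -/
theorem pairCost_le_add {s l δ : ℝ} (hs : 0 < s) (hl : 0 < l) {x y x' y' : E}
    (h : l ≤ ‖x - y‖) (h' : l ≤ ‖x' - y'‖) (hd : |‖x' - y'‖ - ‖x - y‖| ≤ δ) :
    pairCost s x' y' ≤ pairCost s x y + ENNReal.ofReal (s * l ^ (-s - 1) * δ) := by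
  rw [pairCost_eq_ofReal_of_pos s (lt_of_lt_of_le hl h),
    pairCost_eq_ofReal_of_pos s (lt_of_lt_of_le hl h')]
  have hC : 0 ≤ s * l ^ (-s - 1) := mul_nonneg hs.le (Real.rpow_nonneg hl.le _)
  have hδ : 0 ≤ δ := (abs_nonneg _).trans hd
  rw [← ENNReal.ofReal_add (Real.rpow_nonneg (norm_nonneg _) _) (mul_nonneg hC hδ)]
  apply ENNReal.ofReal_le_ofReal
  have h1 := abs_rpow_neg_sub_le hs hl h h'
  have h2 : s * l ^ (-s - 1) * |‖x' - y'‖ - ‖x - y‖| ≤ s * l ^ (-s - 1) * δ :=
    mul_le_mul_of_nonneg_left hd hC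
  have h3 := (abs_le.1 h1).2
  linarith

/-- **Generic `cont`**: if the base-vertex parametrisation is `K`-Lipschitz in the angle and
all sides of the contact triangles are at least `l > 0`, then the cost is uniformly continuous
near the contact triangles in the two base angles.  This is the field `cont` of `TwoShellHyp`
for `c := tripleCost s`. -/
theorem cont_of_lipschitz {Y : Type*} {s : ℝ} (hs : 0 < s) (ΦA ΦB : Y × ℝ → E) (g : Y → ℝ)
    (l K : ℝ) (hl : 0 < l) (hK : 0 ≤ K)
    (hsep : ∀ b t, l ≤ ‖ΦA (b, t) - ΦB (b, t)‖ ∧ l ≤ ‖ΦA (b, t) - ΦB (b, t + g b)‖ ∧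
      l ≤ ‖ΦB (b, t) - ΦB (b, t + g b)‖)
    (hlip : ∀ b t t', ‖ΦB (b, t) - ΦB (b, t')‖ ≤ K * |t - t'|) :
    ∀ ε : ℝ, 0 < ε → ∃ η : ℝ, 0 < η ∧ ∀ b t t₁ t₂, |t₁ - t| ≤ η → |t₂ - (t + g b)| ≤ η →
      tripleCost s (ΦA (b, t), ΦB (b, t₁), ΦB (b, t₂)) ≤
        tripleCost s (ΦA (b, t), ΦB (b, t), ΦB (b, t + g b)) + ENNReal.ofReal ε := by
  intro ε hε
  have hl2 : 0 < l / 2 := by linarith
  set C : ℝ := s * (l / 2) ^ (-s - 1) with hCdef
  have hCpos : 0 < C := mul_pos hs (Real.rpow_pos_of_pos hl2 _)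
  have hK1 : 0 < K + 1 := by linarith
  refine ⟨min (l / (4 * (K + 1))) (ε / (4 * C * (K + 1))), lt_min (by positivity) (by positivity), ?_⟩
  intro b t t₁ t₂ h₁ h₂
  set η : ℝ := min (l / (4 * (K + 1))) (ε / (4 * C * (K + 1))) with hη
  have hη0 : 0 ≤ η := le_min (by positivity) (by positivity)
  have hKη1 : K * η ≤ l / 4 := by
    have h1 : η ≤ l / (4 * (K + 1)) := min_le_left _ _
    have h2 : K * η ≤ (K + 1) * (l / (4 * (K + 1))) :=
      mul_le_mul (by linarith) h1 hη0 hK1.le
    have h3 : (K + 1) * (l / (4 * (K + 1))) = l / 4 := by field_simp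
    linarith
  have hKη2 : 4 * C * (K * η) ≤ ε := by
    have h1 : η ≤ ε / (4 * C * (K + 1)) := min_le_right _ _
    have h2 : K * η ≤ (K + 1) * (ε / (4 * C * (K + 1))) :=
      mul_le_mul (by linarith) h1 hη0 hK1.le
    have h3 : 4 * C * ((K + 1) * (ε / (4 * C * (K + 1)))) = ε := by field_simp
    have h4 : 4 * C * (K * η) ≤ 4 * C * ((K + 1) * (ε / (4 * C * (K + 1)))) :=
      mul_le_mul_of_nonneg_left h2 (by positivity)
    linarith
  obtain ⟨s1, s2, s3⟩ := hsep b t
  -- the points
  set a := ΦA (b, t) with ha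
  set y₀ := ΦB (b, t) with hy₀
  set z₀ := ΦB (b, t + g b) with hz₀
  set y := ΦB (b, t₁) with hy
  set z := ΦB (b, t₂) with hz
  have dy : ‖y - y₀‖ ≤ K * η := (hlip b t₁ t).trans (mul_le_mul_of_nonneg_left h₁ hK)
  have dz : ‖z - z₀‖ ≤ K * η := (hlip b t₂ (t + g b)).trans (mul_le_mul_of_nonneg_left h₂ hK)
  -- distance perturbations
  have e12 : |‖a - y‖ - ‖a - y₀‖| ≤ K * η := by
    have h := abs_norm_sub_norm_le (a - y) (a - y₀)
    have h' : a - y - (a - y₀) = -(y - y₀) := by abel
    rw [h', norm_neg] at h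
    exact h.trans dy
  have e13 : |‖a - z‖ - ‖a - z₀‖| ≤ K * η := by
    have h := abs_norm_sub_norm_le (a - z) (a - z₀)
    have h' : a - z - (a - z₀) = -(z - z₀) := by abel
    rw [h', norm_neg] at h
    exact h.trans dz
  have e23 : |‖y - z‖ - ‖y₀ - z₀‖| ≤ 2 * (K * η) := by
    have h := abs_norm_sub_norm_le (y - z) (y₀ - z₀)
    have h' : y - z - (y₀ - z₀) = (y - y₀) - (z - z₀) := by abel
    rw [h'] at h
    have h2 := norm_sub_le (y - y₀) (z - z₀)
    linarith
  have l12 : l / 2 ≤ ‖a - y‖ := by have := (abs_le.1 e12).1; linarith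
  have l13 : l / 2 ≤ ‖a - z‖ := by have := (abs_le.1 e13).1; linarith
  have l23 : l / 2 ≤ ‖y - z‖ := by have := (abs_le.1 e23).1; linarith
  have p12 := pairCost_le_add hs hl2 (x := a) (y := y₀) (x' := a) (y' := y) (by linarith) l12 e12
  have p13 := pairCost_le_add hs hl2 (x := a) (y := z₀) (x' := a) (y' := z) (by linarith) l13 e13
  have p23 := pairCost_le_add hs hl2 (x := y₀) (y := z₀) (x' := y) (y' := z) (by linarith) l23 e23
  rw [tripleCost_apply, tripleCost_apply]
  have hKη0 : 0 ≤ K * η := mul_nonneg hK hη0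
  have hsum : ENNReal.ofReal (C * (K * η)) + ENNReal.ofReal (C * (K * η)) +
      ENNReal.ofReal (C * (2 * (K * η))) ≤ ENNReal.ofReal ε := by
    rw [← ENNReal.ofReal_add (by positivity) (by positivity),
      ← ENNReal.ofReal_add (by positivity) (by positivity)]
    apply ENNReal.ofReal_le_ofReal
    linarith
  calc pairCost s a y + pairCost s a z + pairCost s y z
      ≤ (pairCost s a y₀ + ENNReal.ofReal (C * (K * η))) +
        (pairCost s a z₀ + ENNReal.ofReal (C * (K * η))) +
        (pairCost s y₀ z₀ + ENNReal.ofReal (C * (2 * (K * η)))) :=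
        add_le_add (add_le_add p12 p13) p23
    _ = pairCost s a y₀ + pairCost s a z₀ + pairCost s y₀ z₀ +
        (ENNReal.ofReal (C * (K * η)) + ENNReal.ofReal (C * (K * η)) +
          ENNReal.ofReal (C * (2 * (K * η)))) := by abel
    _ ≤ pairCost s a y₀ + pairCost s a z₀ + pairCost s y₀ z₀ + ENNReal.ofReal ε :=
        add_le_add le_rfl hsum

end cont

end Crest.Agent.Helper82.OT3
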